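import Vale.Agent.P200.Dim

namespace Vale.Agent.Results.P200.EGHCubicsThree

open MvPolynomial Vale.Agent.P200

/-- The Eisenbud-Green-Harris conjecture for `n = c = 3` and degrees `(3, 3, 3)`, over every field:
if a homogeneous ideal `I` of `K[x₀, x₁, x₂]` contains a regular sequence of three cubics, then
the graded subspace `J = ⨁ J_d`, where `J_d` is spanned by the monomials of degree `d` in
`(x₀³, x₁³, x₂³)` and by the `q_d` lexicographically greatest monomials of degree `d` outside it,
with `q_d = dim I_d - dim P_d`, is an ideal, with the same Hilbert function as `I`. -/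
theorem result {K : Type*} [Field K] (f : Fin 3 → MvPolynomial (Fin 3) K) (hf : IsRegCubic f)
    (I : Ideal (MvPolynomial (Fin 3) K)) (hIf : ∀ i, f i ∈ I)
    (_hI : ∀ p ∈ I, ∀ d, homogeneousComponent d p ∈ I) :
    (∃ J : Ideal (MvPolynomial (Fin 3) K), ∀ p, p ∈ J ↔ p ∈ ⨆ d, lexPlusPowers I d) ∧
      (∀ d, Module.finrank K (lexPlusPowers I d) = Module.finrank K (degPart I d)) := by
  refine ⟨⟨{ carrier := {p | p ∈ ⨆ d, lexPlusPowers I d},
              add_mem' := fun ha hb => Submodule.add_mem (⨆ d, lexPlusPowers I d) ha hb,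
              zero_mem' := Submodule.zero_mem (⨆ d, lexPlusPowers I d),
              smul_mem' := fun r _ hp => closure_all hf hIf r hp }, fun p => Iff.rfl⟩,
    fun d => finrank_J_eq hf hIf d⟩

end Vale.Agent.Results.P200.EGHCubicsThree
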