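import Vale.Agent.P200G.DimJ

namespace Vale.Agent.Results.P200.EGHThreeBB

open MvPolynomial Vale.Agent.P200G

/-- The Eisenbud-Green-Harris conjecture for `n = c = 3` and degrees `(3, b, b)`, `b ≥ 3`, over
every field: if a homogeneous ideal `I` of `K[x₀, x₁, x₂]` contains a regular sequence of forms of
degrees `3, b, b`, then the graded subspace `J = ⨁ J_d`, where `J_d` is spanned by the monomials of
degree `d` in `P = (x₀³, x₁ᵇ, x₂ᵇ)` and by the `q_d` lexicographically greatest monomials of degree
`d` outside `P`, with `q_d = dim I_d - dim P_d`, is an ideal, with the same Hilbert function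
as `I`. -/
theorem result {K : Type*} [Field K] {b : ℕ} (hb : 3 ≤ b) (f : Fin 3 → MvPolynomial (Fin 3) K)
    (hf : IsReg3 ![3, b, b] f) (I : Ideal (MvPolynomial (Fin 3) K)) (hIf : ∀ i, f i ∈ I)
    (_hI : ∀ p ∈ I, ∀ d, homogeneousComponent d p ∈ I) :
    (∃ J : Ideal (MvPolynomial (Fin 3) K), ∀ p, p ∈ J ↔ p ∈ ⨆ d, lexPlusPowers b I d) ∧
      (∀ d, Module.finrank K (lexPlusPowers b I d) = Module.finrank K (degPart I d)) := by
  have hFI : Fid f ≤ I := by
    refine Ideal.span_le.mpr ?_
    rintro _ ⟨i, rfl⟩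
    exact hIf i
  refine ⟨⟨{ carrier := {p | p ∈ ⨆ d, lexPlusPowers b I d},
              add_mem' := fun ha hb => Submodule.add_mem (⨆ d, lexPlusPowers b I d) ha hb,
              zero_mem' := Submodule.zero_mem (⨆ d, lexPlusPowers b I d),
              smul_mem' := fun r _ hp =>
                hf.closure_all (by rfl) (by rfl) (by rfl) hb hFI r hp }, fun p => Iff.rfl⟩,
    fun d => hf.finrank_J_eq (by rfl) (by rfl) (by rfl) hb hFI d⟩

end Vale.Agent.Results.P200.EGHThreeBB
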