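import Vale.Agent.P200H.Low

namespace Vale.Agent.Results.P200.EGHThreeFamily

open MvPolynomial Vale.Agent.P200G Vale.Agent.P200H

/-- The Eisenbud-Green-Harris conjecture for `n = c = 3` and degrees `(a, b, a + b - 3)`,
`3 ≤ a ≤ b`, over every field: if a homogeneous ideal `I` of `K[x₀, x₁, x₂]` contains a regular
sequence of forms of degrees `a, b, c` with `c + 3 = a + b`, then the graded subspace
`J = ⨁ J_d`, where `J_d` is spanned by the monomials of degree `d` in `P = (x₀ᵃ, x₁ᵇ, x₂ᶜ)` and by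
the `q_d` lexicographically greatest monomials of degree `d` outside `P`, with
`q_d = dim I_d - dim P_d`, is an ideal, with the same Hilbert function as `I`. -/
theorem result {K : Type*} [Field K] {a b c : ℕ} (ha : 3 ≤ a) (hab : a ≤ b) (hc : c + 3 = a + b)
    (f : Fin 3 → MvPolynomial (Fin 3) K) (hf : IsReg3 ![a, b, c] f)
    (I : Ideal (MvPolynomial (Fin 3) K)) (hIf : ∀ i, f i ∈ I)
    (_hI : ∀ p ∈ I, ∀ d, homogeneousComponent d p ∈ I) :
    (∃ J : Ideal (MvPolynomial (Fin 3) K), ∀ p, p ∈ J ↔ p ∈ ⨆ d, lexPlusPowersG a b c I d) ∧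
      (∀ d, Module.finrank K (lexPlusPowersG a b c I d) = Module.finrank K (degPart I d)) := by
  have hFI : Fid f ≤ I := by
    refine Ideal.span_le.mpr ?_
    rintro _ ⟨i, rfl⟩
    exact hIf i
  have C : Cfg ![a, b, c] a b c := ⟨rfl, rfl, rfl, ha, hab, hc⟩
  refine ⟨⟨{ carrier := {p | p ∈ ⨆ d, lexPlusPowersG a b c I d},
              add_mem' := fun hx hy => Submodule.add_mem (⨆ d, lexPlusPowersG a b c I d) hx hy,
              zero_mem' := Submodule.zero_mem (⨆ d, lexPlusPowersG a b c I d),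
              smul_mem' := fun r _ hp => C.closure_all hf hFI r hp }, fun p => Iff.rfl⟩,
    fun d => C.finrank_J_eq hf hFI d⟩

end Vale.Agent.Results.P200.EGHThreeFamily
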