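import Vale.Agent.P200H.BettiG

namespace Vale.Agent.Results.P200.EGHThreeRegion

open MvPolynomial Vale.Agent.P200G Vale.Agent.P200H

/-- The Eisenbud-Green-Harris conjecture and the lex-plus-powers conjecture for `n = c = 3` and
degrees `2 ≤ a ≤ b ≤ c`, `a + b ≤ c + 3`, over every field: if a homogeneous ideal `I` of
`S = K[x₀, x₁, x₂]` contains a regular sequence of forms of degrees `a, b, c`, then the graded
subspace `J = ⨁ J_d`, where `J_d` is spanned by the monomials of degree `d` in
`P = (x₀ᵃ, x₁ᵇ, x₂ᶜ)` and by the `q_d` lexicographically greatest monomials of degree `d` outside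
`P`, with `q_d = dim I_d - dim P_d`, is an ideal with the same Hilbert function as `I`, and
`β_{p, p+t}(S/I) ≤ β_{p, p+t}(S/J)` for all `p` and `t`, the graded Betti numbers being computed
as the dimensions of the graded pieces of the Koszul homology of `x₀, x₁, x₂` on `S/I`. -/
theorem result {K : Type*} [Field K] {a b c : ℕ} (ha : 2 ≤ a) (hab : a ≤ b) (hbc : b ≤ c)
    (hc : a + b ≤ c + 3) (f : Fin 3 → MvPolynomial (Fin 3) K) (hf : IsReg3 ![a, b, c] f)
    (I : Ideal (MvPolynomial (Fin 3) K)) (hIf : ∀ i, f i ∈ I)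
    (hI : ∀ p ∈ I, ∀ d, homogeneousComponent d p ∈ I) :
    ∃ J : Ideal (MvPolynomial (Fin 3) K),
      (∀ p, p ∈ J ↔ p ∈ ⨆ d, lexPlusPowersG a b c I d) ∧
      (∀ d, degPart J d = lexPlusPowersG a b c I d) ∧
      (∀ d, Module.finrank K (degPart J d) = Module.finrank K (degPart I d)) ∧
      ∀ p t, koszulBetti I p t ≤ koszulBetti J p t := by
  have hFI : Fid f ≤ I := by
    refine Ideal.span_le.mpr ?_
    rintro _ ⟨i, rfl⟩
    exact hIf i
  have C : Cfg2 ![a, b, c] a b c := ⟨rfl, rfl, rfl, ha, hab, hbc, hc⟩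
  exact exists_lex_ideal C hf hFI hI

end Vale.Agent.Results.P200.EGHThreeRegion
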